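import Vale.Agent.Lib.P328.Main
import Vale.Agent.Lib.P328.ThreeRowOf
import Vale.Agent.Lib.P328.Small

/-!
P328: the two results on the two-row heat-bath chain on contingency tables in one statement.
First clause: local-to-global reduction in its sharpest proved form.  If the three-row variance
inequality `Good3` holds for all THREE-row tables whose row sums occur among the row sums `r` and
are not all at most `2`, then the chain on `Tab r c` (any number of rows and columns) is within `ε`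
of uniform after `m^2 (m n log (B+1) + log (1/ε))` steps.
Second clause: the unconditional case, all row sums at most `2`.
-/

namespace Vale.Agent.Results.P328.AllResults

open Vale.Agent.Lib.P328 Finset Classical

theorem result :
    (∀ (ι κ : Type) [Fintype ι] [Fintype κ] (r : ι → ℕ) (c : κ → ℕ),
      (∀ (r' : Fin 3 → ℕ) (c' : κ → ℕ), (∀ a, ∃ i, r' a = r i) → (∃ a, 2 < r' a) →
        Good3 (fun (a : Fin 3) (Z : Tab r' c') => Z.1 a)) →
      2 ≤ Fintype.card ι → ∀ B : ℕ, (∀ i, r i ≤ B) → ∀ ε : ℝ, 0 < ε → ∀ t : ℕ,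
      (Fintype.card ι : ℝ) ^ 2 * ((Fintype.card ι : ℝ) * (Fintype.card κ : ℝ)
        * Real.log ((B : ℝ) + 1) + Real.log (1 / ε)) ≤ (t : ℝ) → ∀ X : Tab r c,
      tvDist ((heatBath r c ^ t) X) (fun _ => 1 / (Fintype.card (Tab r c) : ℝ)) ≤ ε) ∧
    (∀ (ι κ : Type) [Fintype ι] [Fintype κ] (r : ι → ℕ) (c : κ → ℕ),
      (∀ i, r i ≤ 2) → 2 ≤ Fintype.card ι → ∀ ε : ℝ, 0 < ε → ∀ t : ℕ,
      (Fintype.card ι : ℝ) ^ 2 * ((Fintype.card ι : ℝ) * (Fintype.card κ : ℝ)
        * Real.log 3 + Real.log (1 / ε)) ≤ (t : ℝ) → ∀ X : Tab r c,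
      tvDist ((heatBath r c ^ t) X) (fun _ => 1 / (Fintype.card (Tab r c) : ℝ)) ≤ ε) := by
  have main : ∀ (ι κ : Type) [Fintype ι] [Fintype κ] (r : ι → ℕ) (c : κ → ℕ),
      (∀ (r' : Fin 3 → ℕ) (c' : κ → ℕ), (∀ a, ∃ i, r' a = r i) → (∃ a, 2 < r' a) →
        Good3 (fun (a : Fin 3) (Z : Tab r' c') => Z.1 a)) →
      2 ≤ Fintype.card ι → ∀ B : ℕ, (∀ i, r i ≤ B) → ∀ ε : ℝ, 0 < ε → ∀ t : ℕ,
      (Fintype.card ι : ℝ) ^ 2 * ((Fintype.card ι : ℝ) * (Fintype.card κ : ℝ)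
        * Real.log ((B : ℝ) + 1) + Real.log (1 / ε)) ≤ (t : ℝ) → ∀ X : Tab r c,
      tvDist ((heatBath r c ^ t) X) (fun _ => 1 / (Fintype.card (Tab r c) : ℝ)) ≤ ε := by
    intro ι κ _ _ r c h3 hm B hB ε hε t ht X
    refine mixing_of_threeRow r c (threeRow_of_good3 r c ?_) hm B hB ε hε t ht X
    intro r' c' hr'
    by_cases hbig : ∃ a, 2 < r' a
    · exact h3 r' c' hr' hbig
    · push Not at hbig
      exact good3_small r' c' hbig
  refine ⟨main, ?_⟩
  intro ι κ _ _ r c hr hm ε hε t ht X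
  refine main ι κ r c ?_ hm 2 hr ε hε t ?_ X
  · intro r' c' hr' hbig
    obtain ⟨a, ha⟩ := hbig
    obtain ⟨i, hi⟩ := hr' a
    have := hr i
    omega
  · have e : ((2 : ℕ) : ℝ) + 1 = 3 := by norm_num
    rw [e]
    exact ht

end Vale.Agent.Results.P328.AllResults
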