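import Vale.Agent.Lib.P328.Main
import Vale.Agent.Lib.P328.ThreeRowOf
import Vale.Agent.Lib.P328.Small

/-!
P328: unconditional polynomial mixing of the two-row heat-bath chain on contingency tables with an
arbitrary number of rows and columns, arbitrary column sums and all row sums at most `2`.
-/

namespace Vale.Agent.Results.P328.RowSumsAtMostTwo

open Vale.Agent.Lib.P328 Finset Classical

theorem result (ι κ : Type) [Fintype ι] [Fintype κ] (r : ι → ℕ) (c : κ → ℕ)
    (hr : ∀ i, r i ≤ 2) (hm : 2 ≤ Fintype.card ι) (ε : ℝ) (hε : 0 < ε) (t : ℕ)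
    (ht : (Fintype.card ι : ℝ) ^ 2 * ((Fintype.card ι : ℝ) * (Fintype.card κ : ℝ)
      * Real.log 3 + Real.log (1 / ε)) ≤ (t : ℝ)) (X : Tab r c) :
    tvDist ((heatBath r c ^ t) X) (fun _ => 1 / (Fintype.card (Tab r c) : ℝ)) ≤ ε := by
  have h3 : ThreeRow r c := by
    apply threeRow_of_good3
    intro r' c' hr'
    apply good3_small
    intro a
    obtain ⟨i, hi⟩ := hr' a
    rw [hi]
    exact hr i
  refine mixing_of_threeRow r c h3 hm 2 hr ε hε t ?_ X
  have e : ((2 : ℕ) : ℝ) + 1 = 3 := by norm_num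
  rw [e]
  exact ht

end Vale.Agent.Results.P328.RowSumsAtMostTwo
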