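import Vale.Agent.Lib.P328.Main
import Vale.Agent.Lib.P328.ThreeRowOf

/-!
P328: local-to-global reduction for the two-row heat-bath chain on contingency tables.
If the variance inequality `Good3` holds for all THREE-row tables whose row sums occur among the
row sums `r`, then the chain on `Tab r c` (any number of rows and columns) is within `ε` of uniform
after `m^2 (m n log (B+1) + log (1/ε))` steps.
-/

namespace Vale.Agent.Results.P328.ThreeRowReduction

open Vale.Agent.Lib.P328 Finset Classical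

theorem result (ι κ : Type) [Fintype ι] [Fintype κ] (r : ι → ℕ) (c : κ → ℕ)
    (h3 : ∀ (r' : Fin 3 → ℕ) (c' : κ → ℕ), (∀ a, ∃ i, r' a = r i) →
      Good3 (fun (a : Fin 3) (Z : Tab r' c') => Z.1 a))
    (hm : 2 ≤ Fintype.card ι) (B : ℕ) (hB : ∀ i, r i ≤ B) (ε : ℝ) (hε : 0 < ε) (t : ℕ)
    (ht : (Fintype.card ι : ℝ) ^ 2 * ((Fintype.card ι : ℝ) * (Fintype.card κ : ℝ)
      * Real.log ((B : ℝ) + 1) + Real.log (1 / ε)) ≤ (t : ℝ)) (X : Tab r c) :
    tvDist ((heatBath r c ^ t) X) (fun _ => 1 / (Fintype.card (Tab r c) : ℝ)) ≤ ε :=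
  mixing_of_threeRow r c (threeRow_of_good3 r c h3) hm B hB ε hε t ht X

end Vale.Agent.Results.P328.ThreeRowReduction
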